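import Vale.Agent.Lib.P049.VT

/-!
# P049: no vertex-transitive Ramanujan graphs of large prime order
-/

namespace Vale.Agent.Results.P049.VertexTransitivePrime

/-- For `d ≥ 3`, no vertex-transitive graph on a prime number `p > 20 ^ d` of vertices is a
`d`-regular Ramanujan graph. -/
theorem result {V : Type*} [Fintype V] (Γ : SimpleGraph V) (d : ℕ) (hd : 3 ≤ d)
    (hp : (Fintype.card V).Prime) (hbig : 20 ^ d < Fintype.card V)
    (htrans : ∀ x y : V, ∃ φ : Γ ≃g Γ, φ x = y) : ¬ P049Barrier.IsRamanujan Γ d :=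
  P049Barrier.vt_prime Γ d hd hp hbig htrans

end Vale.Agent.Results.P049.VertexTransitivePrime
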