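import Vale.Agent.Results.P049.FreeAbelianAction
import Vale.Agent.Results.P049.VertexTransitivePrime

/-!
# P049: two barriers for symmetric constructions of Ramanujan graphs of all orders
-/

namespace Vale.Agent.Results.P049.A_Combined

universe u v

/-- (1) Let a finite abelian group `A` act freely by automorphisms on a finite graph `Γ` with `m`
orbits (`|V| = m |A|`).  If `d ≥ 3` and `|A| > 20 ^ (d m)`, then `Γ` is not a `d`-regular Ramanujan
graph.
(2) For `d ≥ 3`, no vertex-transitive graph on a prime number `p > 20 ^ d` of vertices is a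
`d`-regular Ramanujan graph. -/
theorem result :
    (∀ (V : Type u) (A : Type v) [Fintype V] [Nonempty V] [AddCommGroup A] [Fintype A]
      [AddAction A V] (Γ : SimpleGraph V),
      (∀ (a : A) (x : V), a +ᵥ x = x → a = 0) →
      (∀ (a : A) (x y : V), Γ.Adj (a +ᵥ x) (a +ᵥ y) ↔ Γ.Adj x y) →
      ∀ d m : ℕ, 3 ≤ d → Fintype.card V = m * Fintype.card A →
        20 ^ (d * m) < Fintype.card A → ¬ P049Barrier.IsRamanujan Γ d) ∧
    (∀ (V : Type u) [Fintype V] (Γ : SimpleGraph V) (d : ℕ), 3 ≤ d →
      (Fintype.card V).Prime → 20 ^ d < Fintype.card V →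
      (∀ x y : V, ∃ φ : Γ ≃g Γ, φ x = y) → ¬ P049Barrier.IsRamanujan Γ d) :=
  ⟨fun _ _ _ _ _ _ _ Γ hfree haut d m hd hm hbig =>
      Vale.Agent.Results.P049.FreeAbelianAction.result Γ hfree haut d m hd hm hbig,
    fun _ _ Γ d hd hp hbig htrans =>
      Vale.Agent.Results.P049.VertexTransitivePrime.result Γ d hd hp hbig htrans⟩

end Vale.Agent.Results.P049.A_Combined
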