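import Vale.Agent.Lib.P049.Core

/-!
# P049: no Ramanujan Cayley graphs on large abelian groups
-/

namespace Vale.Agent.Results.P049.AbelianCayley

/-- For `d ≥ 3`, no Cayley graph of a finite abelian group with more than `20 ^ d` elements is a
`d`-regular Ramanujan graph.  (`SimpleGraph.circulantGraph s` is the Mathlib Cayley graph of the
additive group `G` with connection set `s`: `a` and `b` are adjacent iff `a ≠ b` and
`a - b ∈ s` or `b - a ∈ s`.) -/
theorem result {G : Type*} [AddCommGroup G] [Fintype G] (s : Set G) (d : ℕ) (hd : 3 ≤ d)
    (hbig : 20 ^ d < Fintype.card G) :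
    ¬ P049Barrier.IsRamanujan (SimpleGraph.circulantGraph s) d :=
  P049Barrier.core _ (Equiv.refl G) (fun a b c => by simp) d hd hbig

end Vale.Agent.Results.P049.AbelianCayley
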