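import Vale.Agent.Lib.P049.Action

/-!
# P049: no Ramanujan graphs with a large free abelian group of automorphisms with few orbits
-/

namespace Vale.Agent.Results.P049.FreeAbelianAction

/-- Let a finite abelian group `A` act freely by automorphisms on a finite graph `Γ` with `m` orbits
(`|V| = m |A|`), that is, `Γ` is an `A`-lift of a base graph on `m` vertices.  If `d ≥ 3` and
`|A| > 20 ^ (d m)`, then `Γ` is not a `d`-regular Ramanujan graph. -/
theorem result {V A : Type*} [Fintype V] [Nonempty V] [AddCommGroup A] [Fintype A] [AddAction A V]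
    (Γ : SimpleGraph V)
    (hfree : ∀ (a : A) (x : V), a +ᵥ x = x → a = 0)
    (haut : ∀ (a : A) (x y : V), Γ.Adj (a +ᵥ x) (a +ᵥ y) ↔ Γ.Adj x y)
    (d m : ℕ) (hd : 3 ≤ d) (hm : Fintype.card V = m * Fintype.card A)
    (hbig : 20 ^ (d * m) < Fintype.card A) : ¬ P049Barrier.IsRamanujan Γ d :=
  P049Barrier.action_core Γ hfree haut d m hd hm hbig

end Vale.Agent.Results.P049.FreeAbelianAction
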